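import Vale.Agent.P038.Main

open Vale.Agent.P038

/-- Seymour's second neighbourhood conjecture: every nonempty finite oriented graph has a vertex
with at least as many vertices at directed distance exactly two as at distance one. -/
theorem Vale.Agent.Results.P038.Seymour.result
    (V : Type*) [Finite V] [Nonempty V] (arc : V → V → Prop)
    (hloop : ∀ v, ¬ arc v v) (hopp : ∀ u v, arc u v → ¬ arc v u) :
    ∃ v : V, {u | arc v u}.ncard ≤
      {w | w ≠ v ∧ ¬ arc v w ∧ ∃ u, arc v u ∧ arc u w}.ncard := by
  classical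
  have := Fintype.ofFinite V
  let G : V → Finset V := fun v => insert v (Finset.univ.filter fun u => arc v u)
  have hmem : ∀ v u, u ∈ G v ↔ u = v ∨ arc v u := by
    intro v u
    simp [G]
  obtain ⟨v, hv⟩ := seymour G (fun z => (hmem z z).2 (Or.inl rfl)) (by
    intro a b h1 h2
    rcases (hmem a b).1 h1 with h | h
    · exact h.symm
    · rcases (hmem b a).1 h2 with h' | h'
      · exact h'
      · exact absurd h' (hopp a b h))
  refine ⟨v, ?_⟩
  have e1 : {u | arc v u} = ((Finset.univ.filter fun u => arc v u : Finset V) : Set V) := by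
    ext u
    simp
  have e2 : {w | w ≠ v ∧ ¬ arc v w ∧ ∃ u, arc v u ∧ arc u w}
      = (((G v).biUnion G \ G v : Finset V) : Set V) := by
    ext w
    simp only [Set.mem_setOf_eq, Finset.coe_sdiff, Set.mem_diff, Finset.mem_coe,
      Finset.mem_biUnion, hmem, not_or]
    constructor
    · rintro ⟨h1, h2, u, h3, h4⟩
      exact ⟨⟨u, Or.inr h3, Or.inr h4⟩, h1, h2⟩
    · rintro ⟨⟨u, h3, h4⟩, h1, h2⟩
      refine ⟨h1, h2, ?_⟩
      rcases h3 with rfl | h3
      · rcases h4 with h4 | h4
        · exact absurd h4 h1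
        · exact absurd h4 h2
      · rcases h4 with rfl | h4
        · exact absurd h3 h2
        · exact ⟨u, h3, h4⟩
  rw [e1, e2, Set.ncard_coe_finset, Set.ncard_coe_finset]
  have e3 : (G v).card = (Finset.univ.filter fun u => arc v u).card + 1 :=
    Finset.card_insert_of_notMem (by simp [hloop])
  have e4 : G v ⊆ (G v).biUnion G := fun u hu =>
    Finset.mem_biUnion.2 ⟨u, hu, (hmem u u).2 (Or.inl rfl)⟩
  have e5 := Finset.card_sdiff_add_card_eq_card e4
  omega
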